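import Crest.Agent.Helper96.S0151.Defs

/-!
# S0151, leaf C7, part 1 (helper24): the weighted shift `T` is a covariant shift

`isCov_T` and `bm_wmul` with the signatures of `Crest.Agent.Helper96.S0151.Blueprint`.
Self-contained (imports only `Defs`): the few facts of leaves C1 / C6a that are needed
(`orbitPoint` composition and measurability, measurability and bounds of `weight`) are proved
here under primed names.
-/

set_option autoImplicit false

open MeasureTheory Crest.AnalysisR.ProductShift
open scoped ENNReal ComplexConjugate

namespace Crest.Agent.Helper24.S0151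

open Crest.Agent.Helper96.S0151

theorem orbitPoint_orbitPoint' (θ : ℕ → ℝ) (a b : ℤ) (x : ℕ → ℝ) :
    orbitPoint θ a (orbitPoint θ b x) = orbitPoint θ (a + b) x := by
  funext i
  simp only [orbitPoint]
  rw [Int.fract_eq_fract]
  refine ⟨-⌊x i + (b : ℝ) * θ i⌋, ?_⟩
  rw [Int.fract]
  push_cast
  ring

theorem measurable_orbitPoint' (θ : ℕ → ℝ) (k : ℤ) : Measurable (orbitPoint θ k) := by
  unfold orbitPoint
  exact measurable_pi_lambda _ fun i =>
    measurable_fract.comp ((measurable_pi_apply i).add_const _)

theorem measurable_dropCost' (θ c : ℕ → ℝ) : Measurable (dropCost θ c) := by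
  unfold dropCost
  refine Measurable.tsum fun i => ?_
  refine ENNReal.measurable_ofReal.comp (measurable_const.mul ?_)
  exact (measurable_of_countable (fun z : ℤ => (z : ℝ))).comp
    (Int.measurable_floor.comp ((measurable_pi_apply i).add_const _))

theorem measurable_weight' (θ c : ℕ → ℝ) : Measurable (weight θ c) := by
  unfold weight
  refine Measurable.ite ?_ measurable_const
    (Real.measurable_exp.comp (measurable_dropCost' θ c).ennreal_toReal.neg)
  exact measurableSet_eq_fun (measurable_dropCost' θ c) measurable_const

theorem weight_nonneg' (θ c : ℕ → ℝ) (x : ℕ → ℝ) : 0 ≤ weight θ c x := by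
  unfold weight
  split_ifs
  · exact le_rfl
  · exact (Real.exp_pos _).le

theorem weight_le_one' (θ c : ℕ → ℝ) (x : ℕ → ℝ) : weight θ c x ≤ 1 := by
  unfold weight
  split_ifs
  · exact zero_le_one
  · rw [Real.exp_le_one_iff]
    exact neg_nonpos.mpr ENNReal.toReal_nonneg

/-- Leaf C7: `T` is the covariant shift with multiplier `wmul θ c` and degree `1`. -/
theorem isCov_T (θ c : ℕ → ℝ) (T : pairSpace →L[ℂ] pairSpace) (hT : IsWeightedShift θ c T) :
    IsCov θ (wmul θ c) 1 T := by
  intro g
  filter_upwards [hT g] with p hp
  rw [hp]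
  have h : orbitPoint θ (-1) (orbitPoint θ p.2 p.1) = orbitPoint θ (p.2 - 1) p.1 := by
    rw [orbitPoint_orbitPoint']
    congr 1
    ring
  simp only [wmul, h]

/-- Leaf C7: the multiplier of `T` is bounded and measurable. -/
theorem bm_wmul (θ c : ℕ → ℝ) : BM (wmul θ c) := by
  refine ⟨?_, 1, fun y => ?_⟩
  · unfold wmul
    exact Complex.measurable_ofReal.comp
      ((measurable_weight' θ c).comp (measurable_orbitPoint' θ (-1)))
  · unfold wmul
    rw [Complex.norm_real, Real.norm_eq_abs, abs_of_nonneg (weight_nonneg' θ c _)]
    exact weight_le_one' θ c _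

end Crest.Agent.Helper24.S0151
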