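import Crest.Agent.Helper24.S0151.TShift
import Crest.Agent.Helper89.S0151.Rot
import Crest.Agent.Helper23.S0151.CovAlg
import Crest.Agent.Helper22.S0151.Adj
import Crest.Agent.Helper95.S0151.Tau

/-!
# S0151, leaf C7, part 2 (helper24): the vacuum state is a trace on `StarAlgebra.adjoin ℂ {T}`

Every element of the `*`-algebra generated by `T` is a finite linear combination of covariant
shifts with bounded measurable multipliers (`Gen θ`), and on two such shifts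
`tau (W₁ W₂) = [d₁ + d₂ = 0] ∫ m₁ · (m₂ ∘ σ^{-d₁}) = tau (W₂ W₁)` by the invariance of
`cubeMeasure` under `σ^{d₁}` and `σ^0`.

Uses leaves C1 (helper89 `Rot`), C3 (helper23 `CovAlg`), C4 (helper22 `Adj`), C5 (helper95 `Tau`).
-/

set_option autoImplicit false

open MeasureTheory Crest.AnalysisR.ProductShift
open scoped ENNReal ComplexConjugate

namespace Crest.Agent.Helper24.S0151

open Crest.Agent.Helper96.S0151

/-- Covariant shifts with bounded measurable multipliers. -/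
def Gen (θ : ℕ → ℝ) : Set (pairSpace →L[ℂ] pairSpace) :=
  {W | ∃ (m : (ℕ → ℝ) → ℂ) (d : ℤ), BM m ∧ IsCov θ m d W}

theorem bm_mul_comp (θ : ℕ → ℝ) {m₁ m₂ : (ℕ → ℝ) → ℂ} (h₁ : BM m₁) (h₂ : BM m₂) (k : ℤ) :
    BM (fun y => m₁ y * m₂ (orbitPoint θ k y)) := by
  obtain ⟨hm₁, C₁, hC₁⟩ := h₁
  obtain ⟨hm₂, C₂, hC₂⟩ := h₂
  refine ⟨hm₁.mul (hm₂.comp (measurable_orbitPoint' θ k)), C₁ * C₂, fun y => ?_⟩
  rw [norm_mul]
  exact mul_le_mul (hC₁ y) (hC₂ _) (norm_nonneg _) ((norm_nonneg _).trans (hC₁ y))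

theorem gen_mul {θ : ℕ → ℝ} {W₁ W₂ : pairSpace →L[ℂ] pairSpace}
    (h₁ : W₁ ∈ Gen θ) (h₂ : W₂ ∈ Gen θ) : W₁ * W₂ ∈ Gen θ := by
  obtain ⟨m₁, d₁, hm₁, hW₁⟩ := h₁
  obtain ⟨m₂, d₂, hm₂, hW₂⟩ := h₂
  exact ⟨_, _, bm_mul_comp θ hm₁ hm₂ (-d₁), Crest.Agent.Helper23.S0151.IsCov.mul hW₁ hW₂⟩

theorem gen_star {θ : ℕ → ℝ} {W : pairSpace →L[ℂ] pairSpace}
    (h : W ∈ Gen θ) : star W ∈ Gen θ := by
  obtain ⟨m, d, hm, hW⟩ := h
  refine ⟨fun y => conj (m (orbitPoint θ d y)), -d, ⟨?_, ?_⟩, ?_⟩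
  · exact Complex.continuous_conj.measurable.comp (hm.1.comp (measurable_orbitPoint' θ d))
  · obtain ⟨C, hC⟩ := hm.2
    exact ⟨C, fun y => by rw [RCLike.norm_conj]; exact hC _⟩
  · rw [ContinuousLinearMap.star_eq_adjoint]
    exact Crest.Agent.Helper22.S0151.IsCov.adjoint hW hm

theorem gen_algebraMap (θ : ℕ → ℝ) (r : ℂ) :
    algebraMap ℂ (pairSpace →L[ℂ] pairSpace) r ∈ Gen θ := by
  refine ⟨fun _ => r * 1, 0, ⟨measurable_const, ‖r * 1‖, fun _ => le_rfl⟩, ?_⟩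
  rw [Algebra.algebraMap_eq_smul_one]
  exact Crest.Agent.Helper23.S0151.IsCov.smul r (Crest.Agent.Helper23.S0151.isCov_one θ)

theorem span_mul {θ : ℕ → ℝ} {P Q : pairSpace →L[ℂ] pairSpace}
    (hP : P ∈ Submodule.span ℂ (Gen θ)) (hQ : Q ∈ Submodule.span ℂ (Gen θ)) :
    P * Q ∈ Submodule.span ℂ (Gen θ) := by
  have h := Submodule.mul_mem_mul hP hQ
  rw [Submodule.span_mul_span] at h
  refine Submodule.span_mono ?_ h
  rintro _ ⟨a, ha, b, hb, rfl⟩
  exact gen_mul ha hb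

theorem span_star {θ : ℕ → ℝ} {P : pairSpace →L[ℂ] pairSpace}
    (hP : P ∈ Submodule.span ℂ (Gen θ)) : star P ∈ Submodule.span ℂ (Gen θ) := by
  induction hP using Submodule.span_induction with
  | mem x hx => exact Submodule.subset_span (gen_star hx)
  | zero => rw [star_zero]; exact zero_mem _
  | add x y _ _ hx hy => rw [star_add]; exact add_mem hx hy
  | smul a x _ hx => rw [star_smul]; exact Submodule.smul_mem _ _ hx

theorem adjoin_subset_span (θ c : ℕ → ℝ) (T : pairSpace →L[ℂ] pairSpace)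
    (hT : IsWeightedShift θ c T) {P : pairSpace →L[ℂ] pairSpace}
    (hP : P ∈ StarAlgebra.adjoin ℂ {T}) : P ∈ Submodule.span ℂ (Gen θ) := by
  induction hP using StarAlgebra.adjoin_induction with
  | mem x hx =>
    rw [Set.mem_singleton_iff] at hx
    rw [hx]
    exact Submodule.subset_span ⟨_, _, bm_wmul θ c, isCov_T θ c T hT⟩
  | algebraMap r => exact Submodule.subset_span (gen_algebraMap θ r)
  | add x y _ _ hx hy => exact add_mem hx hy
  | mul x y _ _ hx hy => exact span_mul hx hy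
  | star x _ hx => exact span_star hx

theorem tau_zero : tau (0 : pairSpace →L[ℂ] pairSpace) = 0 := by
  simp [tau]

theorem tau_add (P Q : pairSpace →L[ℂ] pairSpace) : tau (P + Q) = tau P + tau Q := by
  simp [tau, inner_add_right]

theorem tau_smul (r : ℂ) (P : pairSpace →L[ℂ] pairSpace) : tau (r • P) = r * tau P := by
  simp [tau, inner_smul_right]

theorem integral_comp_orbitPoint (θ : ℕ → ℝ) (f : (ℕ → ℝ) → ℂ) (hf : Measurable f) (k : ℤ) :
    ∫ y, f (orbitPoint θ k y) ∂cubeMeasure = ∫ y, f y ∂cubeMeasure := by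
  have hmp := Crest.Agent.Helper89.S0151.measurePreserving_orbitPoint θ k
  rw [← integral_map hmp.measurable.aemeasurable hf.aestronglyMeasurable, hmp.map_eq]

theorem tau_comm_gen {θ : ℕ → ℝ} {W₁ W₂ : pairSpace →L[ℂ] pairSpace}
    (h₁ : W₁ ∈ Gen θ) (h₂ : W₂ ∈ Gen θ) : tau (W₁ * W₂) = tau (W₂ * W₁) := by
  obtain ⟨m₁, d₁, hm₁, hW₁⟩ := h₁
  obtain ⟨m₂, d₂, hm₂, hW₂⟩ := h₂
  have hF := bm_mul_comp θ hm₁ hm₂ (-d₁)
  have hG := bm_mul_comp θ hm₂ hm₁ (-d₂)
  rw [Crest.Agent.Helper95.S0151.IsCov.tau_eq (Crest.Agent.Helper23.S0151.IsCov.mul hW₁ hW₂) hF,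
    Crest.Agent.Helper95.S0151.IsCov.tau_eq (Crest.Agent.Helper23.S0151.IsCov.mul hW₂ hW₁) hG]
  by_cases hd : d₁ + d₂ = 0
  · have hd' : d₂ + d₁ = 0 := by omega
    rw [if_pos hd, if_pos hd']
    calc ∫ y, m₁ y * m₂ (orbitPoint θ (-d₁) y) ∂cubeMeasure
        = ∫ y, m₁ (orbitPoint θ d₁ y) * m₂ (orbitPoint θ (-d₁) (orbitPoint θ d₁ y))
            ∂cubeMeasure :=
          (integral_comp_orbitPoint θ (fun y => m₁ y * m₂ (orbitPoint θ (-d₁) y)) hF.1 d₁).symm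
      _ = ∫ y, m₂ (orbitPoint θ 0 y) * m₁ (orbitPoint θ (-d₂) (orbitPoint θ 0 y))
            ∂cubeMeasure := by
          congr 1
          funext y
          rw [orbitPoint_orbitPoint', orbitPoint_orbitPoint']
          have e₁ : -d₁ + d₁ = 0 := by omega
          have e₂ : -d₂ + 0 = d₁ := by omega
          rw [e₁, e₂, mul_comm]
      _ = ∫ y, m₂ y * m₁ (orbitPoint θ (-d₂) y) ∂cubeMeasure :=
          integral_comp_orbitPoint θ (fun y => m₂ y * m₁ (orbitPoint θ (-d₂) y)) hG.1 0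
  · have hd' : ¬ d₂ + d₁ = 0 := by omega
    rw [if_neg hd, if_neg hd']

theorem tau_comm_span {θ : ℕ → ℝ} {P Q : pairSpace →L[ℂ] pairSpace}
    (hP : P ∈ Submodule.span ℂ (Gen θ)) (hQ : Q ∈ Submodule.span ℂ (Gen θ)) :
    tau (P * Q) = tau (Q * P) := by
  induction hP, hQ using Submodule.span_induction₂ with
  | mem_mem x y hx hy => exact tau_comm_gen hx hy
  | zero_left y _ => rw [zero_mul, mul_zero]
  | zero_right x _ => rw [zero_mul, mul_zero]
  | add_left x y z _ _ _ h₁ h₂ => rw [add_mul, mul_add, tau_add, tau_add, h₁, h₂]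
  | add_right x y z _ _ _ h₁ h₂ => rw [add_mul, mul_add, tau_add, tau_add, h₁, h₂]
  | smul_left r x y _ _ h => rw [smul_mul_assoc, mul_smul_comm, tau_smul, tau_smul, h]
  | smul_right r x y _ _ h => rw [smul_mul_assoc, mul_smul_comm, tau_smul, tau_smul, h]

/-- Leaf C7: the vacuum state is a trace on the `*`-algebra generated by `T`. -/
theorem tau_comm (θ c : ℕ → ℝ) (T : pairSpace →L[ℂ] pairSpace) (hT : IsWeightedShift θ c T)
    (P : pairSpace →L[ℂ] pairSpace) (hP : P ∈ StarAlgebra.adjoin ℂ {T})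
    (Q : pairSpace →L[ℂ] pairSpace) (hQ : Q ∈ StarAlgebra.adjoin ℂ {T}) :
    tau (P * Q) = tau (Q * P) :=
  tau_comm_span (adjoin_subset_span θ c T hT hP) (adjoin_subset_span θ c T hT hQ)

end Crest.Agent.Helper24.S0151
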